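import Mathlib

/-!
# Area toolkit (row 211): `μHE[2]` of planar sets, triangles and parallelograms in any real
inner product space (in particular `EuclideanSpace ℝ (Fin 3)`).

Main statements (namespace `Crest.Agent.Helper29`):

* `euclideanHausdorff_image_plane a b S` :
    `μHE[2] ((fun x : E2 => x 0 • a + x 1 • b) '' S) = ofReal (gramArea a b) * volume S`
  for ANY set `S` of the plane `E2 = EuclideanSpace ℝ (Fin 2)` and any vectors `a b : E`.
* `euclideanHausdorff_triangle p q r` :
    `μHE[2] (convexHull ℝ {p, q, r}) = ofReal (triArea p q r)`.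
* `euclideanHausdorff_parallelogram c a b` :
    `μHE[2] {x | ∃ s ∈ Icc 0 1, ∃ t ∈ Icc 0 1, x = c + s • a + t • b} = ofReal (gramArea a b)`.
* `hausdorff_two_toReal` : `(μH[(2:ℝ)] s).toReal = hausConst⁻¹ * (μHE[2] s).toReal`.
-/

set_option autoImplicit false
open MeasureTheory Measure Module
open scoped ENNReal NNReal

namespace Crest.Agent.Helper29

/-- The Euclidean plane. -/
abbrev E2 : Type := EuclideanSpace ℝ (Fin 2)

section Defs
variable {E : Type*} [NormedAddCommGroup E] [InnerProductSpace ℝ E]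

/-- Area of the parallelogram spanned by `a`, `b` (square root of the Gram determinant). -/
noncomputable def gramArea (a b : E) : ℝ :=
  Real.sqrt (‖a‖ ^ 2 * ‖b‖ ^ 2 - (inner ℝ a b) ^ 2)

/-- Gram area of the triangle `p q r`. -/
noncomputable def triArea (p q r : E) : ℝ :=
  Real.sqrt (‖q - p‖ ^ 2 * ‖r - p‖ ^ 2 - (inner ℝ (q - p) (r - p)) ^ 2) / 2

lemma triArea_eq_gramArea (p q r : E) : triArea p q r = gramArea (q - p) (r - p) / 2 := rfl

lemma gramArea_nonneg (a b : E) : 0 ≤ gramArea a b := Real.sqrt_nonneg _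

lemma triArea_nonneg (p q r : E) : 0 ≤ triArea p q r :=
  div_nonneg (Real.sqrt_nonneg _) (by norm_num)

end Defs

/-! ### The plane: standard triangle and unit square -/

/-- The standard triangle of `ℝ × ℝ` has area `1/2`. -/
lemma volume_stdTri_prod :
    volume {p : ℝ × ℝ | 0 ≤ p.1 ∧ 0 ≤ p.2 ∧ p.1 + p.2 ≤ 1} = ENNReal.ofReal (1 / 2) := by
  have hs : MeasurableSet {p : ℝ × ℝ | 0 ≤ p.1 ∧ 0 ≤ p.2 ∧ p.1 + p.2 ≤ 1} := by
    apply IsClosed.measurableSet
    exact (isClosed_le continuous_const continuous_fst).inter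
      ((isClosed_le continuous_const continuous_snd).inter
        (isClosed_le (continuous_fst.add continuous_snd) continuous_const))
  rw [Measure.volume_eq_prod, Measure.prod_apply hs]
  have h1 : ∀ x : ℝ, volume (Prod.mk x ⁻¹' {p : ℝ × ℝ | 0 ≤ p.1 ∧ 0 ≤ p.2 ∧ p.1 + p.2 ≤ 1}) =
      (Set.Icc (0:ℝ) 1).indicator (fun x => ENNReal.ofReal (1 - x)) x := by
    intro x
    by_cases hx : x ∈ Set.Icc (0:ℝ) 1
    · rw [Set.indicator_of_mem hx]
      have : Prod.mk x ⁻¹' {p : ℝ × ℝ | 0 ≤ p.1 ∧ 0 ≤ p.2 ∧ p.1 + p.2 ≤ 1} = Set.Icc 0 (1 - x) := by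
        ext y
        simp only [Set.mem_preimage, Set.mem_ofPred_eq, Set.mem_Icc]
        constructor
        · rintro ⟨_, h2, h3⟩; exact ⟨h2, by linarith⟩
        · rintro ⟨h2, h3⟩; exact ⟨hx.1, h2, by linarith⟩
      rw [this, Real.volume_Icc]; simp
    · rw [Set.indicator_of_notMem hx]
      have : Prod.mk x ⁻¹' {p : ℝ × ℝ | 0 ≤ p.1 ∧ 0 ≤ p.2 ∧ p.1 + p.2 ≤ 1} = ∅ := by
        ext y
        simp only [Set.mem_preimage, Set.mem_ofPred_eq, Set.mem_empty_iff_false, iff_false]
        rintro ⟨h1, h2, h3⟩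
        exact hx ⟨h1, by linarith⟩
      rw [this]; simp
  simp_rw [h1]
  rw [lintegral_indicator measurableSet_Icc]
  rw [← ofReal_integral_eq_lintegral_ofReal]
  · congr 1
    rw [integral_Icc_eq_integral_Ioc, ← intervalIntegral.integral_of_le zero_le_one,
      intervalIntegral.integral_sub intervalIntegrable_const intervalIntegral.intervalIntegrable_id,
      intervalIntegral.integral_const, integral_id]
    norm_num
  · exact (Continuous.integrableOn_Icc (by fun_prop))
  · rw [Filter.EventuallyLE, ae_restrict_iff' measurableSet_Icc]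
    exact Filter.Eventually.of_forall (fun x hx => by simpa using hx.2)

/-- The coordinate map `E2 → ℝ × ℝ` is measure preserving. -/
lemma measurePreserving_coords :
    MeasurePreserving (fun x : E2 => ((x 0 : ℝ), (x 1 : ℝ))) volume volume :=
  (volume_preserving_finTwoArrow ℝ).comp (PiLp.volume_preserving_ofLp (Fin 2))

/-- The standard triangle of the plane. -/
def stdTri2 : Set E2 := {x | 0 ≤ x 0 ∧ 0 ≤ x 1 ∧ x 0 + x 1 ≤ 1}

/-- The unit square of the plane. -/
def unitSq2 : Set E2 := {x | x 0 ∈ Set.Icc (0:ℝ) 1 ∧ x 1 ∈ Set.Icc (0:ℝ) 1}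

lemma volume_stdTri2 : volume stdTri2 = ENNReal.ofReal (1 / 2) := by
  have hs : MeasurableSet {p : ℝ × ℝ | 0 ≤ p.1 ∧ 0 ≤ p.2 ∧ p.1 + p.2 ≤ 1} := by
    apply IsClosed.measurableSet
    exact (isClosed_le continuous_const continuous_fst).inter
      ((isClosed_le continuous_const continuous_snd).inter
        (isClosed_le (continuous_fst.add continuous_snd) continuous_const))
  have := measurePreserving_coords.measure_preimage hs.nullMeasurableSet
  rw [volume_stdTri_prod] at this
  exact this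

lemma volume_unitSq2 : volume unitSq2 = 1 := by
  have hs : MeasurableSet (Set.Icc (0:ℝ) 1 ×ˢ Set.Icc (0:ℝ) 1) :=
    measurableSet_Icc.prod measurableSet_Icc
  have := measurePreserving_coords.measure_preimage hs.nullMeasurableSet
  rw [Measure.volume_eq_prod, Measure.prod_prod, Real.volume_Icc] at this
  have h2 : unitSq2 = (fun x : E2 => ((x 0 : ℝ), (x 1 : ℝ))) ⁻¹' (Set.Icc (0:ℝ) 1 ×ˢ Set.Icc (0:ℝ) 1) := by
    ext x; rfl
  rw [h2, this]; simp

/-- The linear map `x ↦ x 0 • a + x 1 • b` from the plane. -/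
noncomputable def planeMap {E : Type*} [AddCommGroup E] [Module ℝ E] (a b : E) : E2 →ₗ[ℝ] E where
  toFun x := x 0 • a + x 1 • b
  map_add' x y := by simp [add_smul]; abel
  map_smul' c x := by simp [mul_smul, smul_add]

@[simp] lemma planeMap_apply {E : Type*} [AddCommGroup E] [Module ℝ E] (a b : E) (x : E2) :
    planeMap a b x = x 0 • a + x 1 • b := rfl

lemma det_planeMap (a b : E2) : LinearMap.det (planeMap a b) = a 0 * b 1 - a 1 * b 0 := by
  rw [← LinearMap.det_toMatrix (EuclideanSpace.basisFun (Fin 2) ℝ).toBasis, Matrix.det_fin_two]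
  simp [LinearMap.toMatrix_apply]
  ring

/-- Lagrange identity in the plane. -/
lemma abs_det_eq_gramArea (a b : E2) : |a 0 * b 1 - a 1 * b 0| = gramArea a b := by
  unfold gramArea
  rw [← Real.sqrt_sq_eq_abs]
  congr 1
  rw [EuclideanSpace.real_norm_sq_eq, EuclideanSpace.real_norm_sq_eq]
  simp [Fin.sum_univ_two, PiLp.inner_apply]
  ring

lemma volume_image_planeMap (a b : E2) (S : Set E2) :
    volume (planeMap a b '' S) = ENNReal.ofReal (gramArea a b) * volume S := by
  rw [addHaar_image_linearMap, det_planeMap, abs_det_eq_gramArea]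

lemma volume_image_planeMap_of_basis {W : Type*} [NormedAddCommGroup W] [InnerProductSpace ℝ W]
    [MeasurableSpace W] [BorelSpace W] [FiniteDimensional ℝ W]
    (bW : OrthonormalBasis (Fin 2) ℝ W) (a b : W) (S : Set E2) :
    volume (planeMap a b '' S) = ENNReal.ofReal (gramArea a b) * volume S := by
  have h1 : planeMap a b '' S =
      bW.measurableEquiv ⁻¹' (planeMap (bW.repr a) (bW.repr b) '' S) := by
    ext x
    simp only [Set.mem_image, Set.mem_preimage, planeMap_apply]
    constructor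
    · rintro ⟨y, hy, rfl⟩
      refine ⟨y, hy, ?_⟩
      change _ = bW.repr _
      simp
    · rintro ⟨y, hy, hyx⟩
      refine ⟨y, hy, ?_⟩
      apply bW.repr.injective
      change _ = bW.repr x at hyx
      rw [← hyx]; simp
  rw [h1, bW.measurePreserving_measurableEquiv.measure_preimage_equiv, volume_image_planeMap]
  congr 2
  simp [gramArea, LinearIsometryEquiv.inner_map_map]

section Main
variable {E : Type*} [NormedAddCommGroup E] [InnerProductSpace ℝ E] [MeasurableSpace E]
  [BorelSpace E]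

/-- A segment has zero 2-dimensional measure. -/
lemma euclideanHausdorff_two_segment (x y : E) : μHE[2] (segment ℝ x y) = 0 := by
  rcases euclideanHausdorffMeasure_zero_or_top (X := E) (d₁ := 1) (d₂ := 2) (by norm_num)
    (segment ℝ x y) with h | h
  · exact h
  · exfalso
    rw [euclideanHausdorffMeasure_def, Measure.smul_apply] at h
    have h2 : μH[((1:ℕ):ℝ)] (segment ℝ x y) = edist x y := by
      simp [hausdorffMeasure_segment x y]
    rw [h2] at h
    exact (ENNReal.mul_lt_top ENNReal.coe_lt_top (edist_lt_top x y)).ne h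

/-- A line has zero 2-dimensional measure. -/
lemma euclideanHausdorff_two_line (d : E) : μHE[2] (Set.range (fun s : ℝ => s • d)) = 0 := by
  have hsub : Set.range (fun s : ℝ => s • d) ⊆ ⋃ n : ℕ, segment ℝ ((-(n:ℝ)) • d) ((n:ℝ) • d) := by
    rintro _ ⟨s, rfl⟩
    obtain ⟨n, hn⟩ := exists_nat_ge |s|
    refine Set.mem_iUnion.2 ⟨n + 1, ?_⟩
    have hn1 : |s| < (n:ℝ) + 1 := by linarith
    have hpos : (0:ℝ) < (n:ℝ) + 1 := by positivity
    rw [abs_lt] at hn1
    refine ⟨((n:ℝ) + 1 - s) / (2 * ((n:ℝ) + 1)), ((n:ℝ) + 1 + s) / (2 * ((n:ℝ) + 1)),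
      div_nonneg (by linarith) (by positivity), div_nonneg (by linarith) (by positivity), ?_, ?_⟩
    · field_simp; ring
    · push_cast
      rw [smul_smul, smul_smul, ← add_smul]
      congr 1
      field_simp; ring
  refine measure_mono_null hsub ?_
  exact measure_iUnion_null (fun n => euclideanHausdorff_two_segment _ _)

omit [MeasurableSpace E] [BorelSpace E] in
lemma gramArea_smul_smul (d : E) (α β : ℝ) : gramArea (α • d) (β • d) = 0 := by
  unfold gramArea
  have : ‖α • d‖ ^ 2 * ‖β • d‖ ^ 2 - inner ℝ (α • d) (β • d) ^ 2 = 0 := by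
    rw [norm_smul, norm_smul, inner_smul_left, inner_smul_right, real_inner_self_eq_norm_sq]
    simp only [Real.norm_eq_abs, mul_pow, sq_abs, conj_trivial]
    ring
  rw [this, Real.sqrt_zero]

/-- **Area of a planar set.** For arbitrary vectors `a b` of a real inner product space and an
arbitrary set `S` of the plane, the image of `S` under `x ↦ x 0 • a + x 1 • b` has
2-dimensional (Lebesgue-normalised Hausdorff) measure `gramArea a b * volume S`. -/
theorem euclideanHausdorff_image_plane (a b : E) (S : Set E2) :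
    μHE[2] (planeMap a b '' S) = ENNReal.ofReal (gramArea a b) * volume S := by
  by_cases hli : LinearIndependent ℝ ![a, b]
  · -- the 2-dimensional subspace spanned by `a`, `b`
    set W : Submodule ℝ E := Submodule.span ℝ (Set.range ![a, b]) with hW
    have hfin : finrank ℝ W = 2 := by
      rw [hW, finrank_span_eq_card hli]; simp
    have : FiniteDimensional ℝ W := FiniteDimensional.span_of_finite ℝ (Set.finite_range _)
    let bW : OrthonormalBasis (Fin 2) ℝ W := (stdOrthonormalBasis ℝ W).reindex (finCongr hfin)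
    let a' : W := ⟨a, Submodule.subset_span ⟨0, rfl⟩⟩
    let b' : W := ⟨b, Submodule.subset_span ⟨1, rfl⟩⟩
    have h1 : planeMap a b '' S = Subtype.val '' (planeMap a' b' '' S) := by
      ext x
      simp only [Set.mem_image, planeMap_apply]
      constructor
      · rintro ⟨y, hy, rfl⟩
        exact ⟨y 0 • a' + y 1 • b', ⟨y, hy, rfl⟩, rfl⟩
      · rintro ⟨_, ⟨y, hy, rfl⟩, rfl⟩
        exact ⟨y, hy, rfl⟩
    have h2 : (μHE[2] : Measure W) = volume := by
      have := InnerProductSpace.euclideanHausdorffMeasure_eq_volume (V := W)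
      rwa [hfin] at this
    rw [h1, isometry_subtype_coe.euclideanHausdorffMeasure_image, h2,
      volume_image_planeMap_of_basis bW]
    rfl
  · -- degenerate case: everything lies on a line
    obtain ⟨d, α, β, rfl, rfl⟩ : ∃ (d : E) (α β : ℝ), a = α • d ∧ b = β • d := by
      rw [LinearIndependent.pair_iff] at hli
      push Not at hli
      obtain ⟨s, t, hst, hne⟩ := hli
      by_cases hs : s = 0
      · have ht : t ≠ 0 := hne hs
        subst hs
        have hb : b = 0 := by
          simpa [ht] using hst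
        exact ⟨a, 1, 0, by simp, by simp [hb]⟩
      · refine ⟨b, -(t / s), 1, ?_, by simp⟩
        have : s • a = -(t • b) := eq_neg_of_add_eq_zero_left hst
        calc a = s⁻¹ • (s • a) := by rw [smul_smul, inv_mul_cancel₀ hs, one_smul]
          _ = -(t / s) • b := by rw [this, smul_neg, smul_smul, neg_smul]; congr 2; field_simp
    rw [gramArea_smul_smul, ENNReal.ofReal_zero, zero_mul]
    refine measure_mono_null ?_ (euclideanHausdorff_two_line d)
    rintro _ ⟨y, _, rfl⟩
    exact ⟨y 0 * α + y 1 * β, by simp [planeMap_apply, add_smul, mul_smul]⟩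

end Main

/-! ### Triangles and parallelograms -/

section Convex
variable {E : Type*} [AddCommGroup E] [Module ℝ E]

/-- Barycentric description of a triangle. -/
lemma mem_convexHull_triple (p q r x : E) :
    x ∈ convexHull ℝ ({p, q, r} : Set E) ↔
      ∃ s t : ℝ, 0 ≤ s ∧ 0 ≤ t ∧ s + t ≤ 1 ∧ x = p + s • (q - p) + t • (r - p) := by
  constructor
  · have hC : Convex ℝ {x : E | ∃ s t : ℝ, 0 ≤ s ∧ 0 ≤ t ∧ s + t ≤ 1 ∧
        x = p + s • (q - p) + t • (r - p)} := by
      rintro _ ⟨s, t, hs, ht, hst, rfl⟩ _ ⟨s', t', hs', ht', hst', rfl⟩ α β hα hβ hαβ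
      refine ⟨α * s + β * s', α * t + β * t', by positivity, by positivity, by nlinarith, ?_⟩
      have hβ' : β = 1 - α := by linarith
      subst hβ'
      module
    refine fun hx => convexHull_min ?_ hC hx
    rintro y (rfl | rfl | rfl)
    · exact ⟨0, 0, le_rfl, le_rfl, by norm_num, by simp⟩
    · exact ⟨1, 0, zero_le_one, le_rfl, by norm_num, by simp⟩
    · exact ⟨0, 1, le_rfl, zero_le_one, by norm_num, by simp⟩
  · rintro ⟨s, t, hs, ht, hst, rfl⟩
    have hc := convex_convexHull ℝ ({p, q, r} : Set E)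
    have hp : p ∈ convexHull ℝ ({p, q, r} : Set E) := subset_convexHull ℝ _ (by simp)
    have hq : q ∈ convexHull ℝ ({p, q, r} : Set E) := subset_convexHull ℝ _ (by simp)
    have hr : r ∈ convexHull ℝ ({p, q, r} : Set E) := subset_convexHull ℝ _ (by simp)
    have key := hc.sum_mem (t := (Finset.univ : Finset (Fin 3))) (w := ![1 - s - t, s, t])
      (z := ![p, q, r])
      (by intro i _; fin_cases i <;> simp <;> linarith)
      (by simp only [Fin.sum_univ_three, Matrix.cons_val_zero, Matrix.cons_val_one, Matrix.cons_val_two, Matrix.head_cons, Matrix.tail_cons]; ring)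
      (by intro i _; fin_cases i <;> simp [hp, hq, hr])
    have h2 : p + s • (q - p) + t • (r - p) = ∑ i : Fin 3, (![1 - s - t, s, t] i) • (![p, q, r] i) := by
      simp only [Fin.sum_univ_three, Matrix.cons_val_zero, Matrix.cons_val_one, Matrix.cons_val_two,
        Matrix.head_cons, Matrix.tail_cons]
      module
    rw [h2]; exact key

lemma convexHull_triple_eq_image (p q r : E) :
    convexHull ℝ ({p, q, r} : Set E) = (fun x => p + x) '' (planeMap (q - p) (r - p) '' stdTri2) := by
  ext x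
  rw [mem_convexHull_triple]
  simp only [Set.mem_image, planeMap_apply, stdTri2, Set.mem_ofPred_eq]
  constructor
  · rintro ⟨s, t, hs, ht, hst, rfl⟩
    refine ⟨s • (q - p) + t • (r - p), ⟨!₂[s, t], ⟨by simpa using hs, by simpa using ht, by simpa using hst⟩, by simp⟩, by abel⟩
  · rintro ⟨_, ⟨y, ⟨h0, h1, h01⟩, rfl⟩, rfl⟩
    exact ⟨y 0, y 1, h0, h1, h01, by abel⟩

lemma parallelogram_eq_image (c a b : E) :
    {x : E | ∃ s ∈ Set.Icc (0 : ℝ) 1, ∃ t ∈ Set.Icc (0 : ℝ) 1, x = c + s • a + t • b} =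
      (fun x => c + x) '' (planeMap a b '' unitSq2) := by
  ext x
  simp only [Set.mem_image, planeMap_apply, unitSq2, Set.mem_ofPred_eq]
  constructor
  · rintro ⟨s, hs, t, ht, rfl⟩
    refine ⟨s • a + t • b, ⟨!₂[s, t], ⟨by simpa using hs, by simpa using ht⟩, by simp⟩, by abel⟩
  · rintro ⟨_, ⟨y, ⟨h0, h1⟩, rfl⟩, rfl⟩
    exact ⟨y 0, h0, y 1, h1, by abel⟩

end Convex

section Area
variable {E : Type*} [NormedAddCommGroup E] [InnerProductSpace ℝ E] [MeasurableSpace E]
  [BorelSpace E]

omit [InnerProductSpace ℝ E] in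
/-- Translation invariance of `μHE[2]` on images. -/
lemma euclideanHausdorff_image_add_left (c : E) (T : Set E) :
    μHE[2] ((fun x => c + x) '' T) = μHE[2] T :=
  (isometry_add_left c).euclideanHausdorffMeasure_image T

/-- **Area of a triangle** (any three points, possibly degenerate). -/
theorem euclideanHausdorff_triangle (p q r : E) :
    μHE[2] (convexHull ℝ ({p, q, r} : Set E)) = ENNReal.ofReal (triArea p q r) := by
  rw [convexHull_triple_eq_image, euclideanHausdorff_image_add_left,
    euclideanHausdorff_image_plane, volume_stdTri2, ← ENNReal.ofReal_mul (gramArea_nonneg _ _),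
    triArea_eq_gramArea]
  congr 1; ring

theorem euclideanHausdorff_triangle_toReal (p q r : E) :
    (μHE[2] (convexHull ℝ ({p, q, r} : Set E))).toReal = triArea p q r := by
  rw [euclideanHausdorff_triangle, ENNReal.toReal_ofReal (triArea_nonneg _ _ _)]

/-- **Area of a parallelogram** `c + [0,1] a + [0,1] b` (possibly degenerate). -/
theorem euclideanHausdorff_parallelogram (c a b : E) :
    μHE[2] {x : E | ∃ s ∈ Set.Icc (0 : ℝ) 1, ∃ t ∈ Set.Icc (0 : ℝ) 1, x = c + s • a + t • b} =
      ENNReal.ofReal (gramArea a b) := by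
  rw [parallelogram_eq_image, euclideanHausdorff_image_add_left,
    euclideanHausdorff_image_plane, volume_unitSq2, mul_one]

theorem euclideanHausdorff_parallelogram_toReal (c a b : E) :
    (μHE[2] {x : E | ∃ s ∈ Set.Icc (0 : ℝ) 1, ∃ t ∈ Set.Icc (0 : ℝ) 1,
      x = c + s • a + t • b}).toReal = gramArea a b := by
  rw [euclideanHausdorff_parallelogram, ENNReal.toReal_ofReal (gramArea_nonneg _ _)]

/-- Upper bound version for subsets of a triangle. -/
theorem euclideanHausdorff_le_of_subset_triangle {B : Set E} (p q r : E)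
    (h : B ⊆ convexHull ℝ ({p, q, r} : Set E)) : μHE[2] B ≤ ENNReal.ofReal (triArea p q r) :=
  (measure_mono h).trans_eq (euclideanHausdorff_triangle p q r)

/-- Upper bound version for subsets of a parallelogram. -/
theorem euclideanHausdorff_le_of_subset_parallelogram {B : Set E} (c a b : E)
    (h : B ⊆ {x : E | ∃ s ∈ Set.Icc (0 : ℝ) 1, ∃ t ∈ Set.Icc (0 : ℝ) 1, x = c + s • a + t • b}) :
    μHE[2] B ≤ ENNReal.ofReal (gramArea a b) :=
  (measure_mono h).trans_eq (euclideanHausdorff_parallelogram c a b)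

end Area

/-! ### Gram area: algebra -/

section GramAlgebra
variable {E : Type*} [NormedAddCommGroup E] [InnerProductSpace ℝ E]

lemma gram_nonneg (a b : E) : 0 ≤ ‖a‖ ^ 2 * ‖b‖ ^ 2 - (inner ℝ a b) ^ 2 := by
  have h := abs_real_inner_le_norm a b
  have h2 : (inner ℝ a b) ^ 2 ≤ (‖a‖ * ‖b‖) ^ 2 := by
    rw [← sq_abs (inner ℝ a b)]
    exact pow_le_pow_left₀ (abs_nonneg _) h 2
  nlinarith [h2]

lemma gramArea_sq (a b : E) : gramArea a b ^ 2 = ‖a‖ ^ 2 * ‖b‖ ^ 2 - (inner ℝ a b) ^ 2 :=
  Real.sq_sqrt (gram_nonneg a b)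

lemma gramArea_comm (a b : E) : gramArea a b = gramArea b a := by
  unfold gramArea; rw [real_inner_comm, mul_comm]

lemma gramArea_of_inner_eq_zero {a b : E} (h : inner ℝ a b = 0) : gramArea a b = ‖a‖ * ‖b‖ := by
  unfold gramArea
  rw [h, ← mul_pow]
  simp [Real.sqrt_sq (mul_nonneg (norm_nonneg a) (norm_nonneg b))]

lemma gramArea_le (a b : E) : gramArea a b ≤ ‖a‖ * ‖b‖ := by
  unfold gramArea
  apply Real.sqrt_le_iff.2
  refine ⟨by positivity, ?_⟩
  nlinarith [sq_nonneg (inner ℝ a b)]

lemma gramArea_smul_left (c : ℝ) (a b : E) : gramArea (c • a) b = |c| * gramArea a b := by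
  unfold gramArea
  rw [norm_smul, inner_smul_left, Real.norm_eq_abs]
  have : (|c| * ‖a‖) ^ 2 * ‖b‖ ^ 2 - ((starRingEnd ℝ) c * inner ℝ a b) ^ 2 =
      c ^ 2 * (‖a‖ ^ 2 * ‖b‖ ^ 2 - inner ℝ a b ^ 2) := by
    simp only [conj_trivial, mul_pow, sq_abs]; ring
  rw [this, Real.sqrt_mul (sq_nonneg c), Real.sqrt_sq_eq_abs]

lemma gramArea_smul_right (c : ℝ) (a b : E) : gramArea a (c • b) = |c| * gramArea a b := by
  rw [gramArea_comm, gramArea_smul_left, gramArea_comm]

/-- Coordinates in `ℝ³` (norm of the cross product). -/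
lemma gramArea_three (a b : EuclideanSpace ℝ (Fin 3)) :
    gramArea a b = Real.sqrt ((a 1 * b 2 - a 2 * b 1) ^ 2 + (a 2 * b 0 - a 0 * b 2) ^ 2 +
      (a 0 * b 1 - a 1 * b 0) ^ 2) := by
  unfold gramArea
  congr 1
  rw [EuclideanSpace.real_norm_sq_eq, EuclideanSpace.real_norm_sq_eq]
  simp [Fin.sum_univ_three, PiLp.inner_apply]
  ring

lemma triArea_three (p q r : EuclideanSpace ℝ (Fin 3)) :
    triArea p q r = Real.sqrt (((q 1 - p 1) * (r 2 - p 2) - (q 2 - p 2) * (r 1 - p 1)) ^ 2 +
      ((q 2 - p 2) * (r 0 - p 0) - (q 0 - p 0) * (r 2 - p 2)) ^ 2 +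
      ((q 0 - p 0) * (r 1 - p 1) - (q 1 - p 1) * (r 0 - p 0)) ^ 2) / 2 := by
  rw [triArea_eq_gramArea, gramArea_three]
  simp

end GramAlgebra

/-! ### `μH[2]` versus `μHE[2]` -/

section Haus
variable {X : Type*} [EMetricSpace X] [MeasurableSpace X] [BorelSpace X]

/-- The normalising constant: `μHE[2] = hausConst • μH[2]`. -/
noncomputable def hausConst : ℝ≥0 :=
  addHaarScalarFactor (volume : Measure (EuclideanSpace ℝ (Fin 2))) μH[((2 : ℕ) : ℝ)]

lemma hausConst_ne_zero : hausConst ≠ 0 :=
  addHaarScalarFactor_volume_hausdorffMeasure_ne_zero 2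

lemma hausConst_pos : (0 : ℝ) < (hausConst : ℝ) :=
  NNReal.coe_pos.2 (pos_iff_ne_zero.2 hausConst_ne_zero)

lemma euclideanHausdorff_two_apply (s : Set X) :
    μHE[2] s = (hausConst : ℝ≥0∞) * μH[(2 : ℝ)] s := by
  rw [euclideanHausdorffMeasure_def, Measure.smul_apply]
  simp [hausConst, ENNReal.smul_def]

/-- `μH[2]` (un-normalised) in terms of `μHE[2]`. -/
lemma hausdorff_two_toReal (s : Set X) :
    (μH[(2 : ℝ)] s).toReal = (hausConst : ℝ)⁻¹ * (μHE[2] s).toReal := by
  rw [euclideanHausdorff_two_apply, ENNReal.toReal_mul, ENNReal.coe_toReal, ← mul_assoc,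
    inv_mul_cancel₀ hausConst_pos.ne', one_mul]

end Haus

end Crest.Agent.Helper29
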